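import Vale.Agent.P157.Link

/-!
# P157: superadditivity on the cube and existence of the limit
-/

open MeasureTheory ProbabilityTheory Filter Topology

namespace P157

/-- spin value -/
noncomputable def sp (b : Bool) : ℝ := if b then 1 else -1

/-- constraint weights on the cube -/
noncomputable def VU (U : ℝ → ℝ) (N : ℕ) (g : Fin N → ℝ) (x : Fin N → Bool) : ℝ :=
  U ((∑ i, g i * sp (x i)) / Real.sqrt N)

lemma VU_GV {U : ℝ → ℝ} (hU : Measurable U) {C : ℝ} (h1 : ∀ t, Real.exp (-C) ≤ U t)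
    (h2 : ∀ t, U t ≤ Real.exp C) (N : ℕ) : GV C (VU U N) :=
  ⟨fun x => hU.comp (by fun_prop), fun g x => h1 _, fun g x => h2 _⟩

/-- one-constraint comparison property on the cube -/
def One (U : ℝ → ℝ) : Prop :=
  ∀ m n : ℕ, 0 < m → 0 < n → ∀ w : (Fin (m + n) → Bool) → ℝ, (∀ x, 0 < w x) →
    Mx ((m : ℝ) / (m + n)) ((n : ℝ) / (m + n))
      (T (gam (Fin m)) fun g x => VU U m g fun i => x (Fin.castAdd n i))
      (T (gam (Fin n)) fun g x => VU U n g fun j => x (Fin.natAdd m j)) L w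
    ≤ T (gam (Fin (m + n))) (VU U (m + n)) L w

/-- the expected log partition function -/
noncomputable def aN (U : ℝ → ℝ) (α : ℝ) (N : ℕ) : ℝ :=
  (T (gam (Fin N)) (VU U N))^[⌊α * N⌋₊] L (fun _ => (1 / 2 : ℝ) ^ N)

lemma Bq_bound {α C : ℝ} (hα : 0 < α) (m n : ℕ) (hm : 0 < m) (hn : 0 < n) (hmn : m ≤ n) :
    Bq (Real.sqrt (α * m + 1)) ((m : ℝ) / (m + n)) ((n : ℝ) / (m + n)) ⌊α * ((m + n : ℕ) : ℝ)⌋₊
      ((⌊α * m⌋₊ : ℕ) : ℝ) ((⌊α * n⌋₊ : ℕ) : ℝ) ≤ 2 * Real.sqrt (α * m + 1) := by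
  have hm' : (0 : ℝ) < m := by exact_mod_cast hm
  have hn' : (0 : ℝ) < n := by exact_mod_cast hn
  set k : ℝ := ((⌊α * ((m + n : ℕ) : ℝ)⌋₊ : ℕ) : ℝ) with hk
  set s : ℝ := ((⌊α * m⌋₊ : ℕ) : ℝ) with hs
  set t : ℝ := ((⌊α * n⌋₊ : ℕ) : ℝ) with ht
  set p : ℝ := (m : ℝ) / (m + n) with hp
  set q : ℝ := (n : ℝ) / (m + n) with hq
  have hmn' : (0 : ℝ) < m + n := by positivity
  have hp0 : 0 < p := by positivity
  have hq0 : 0 < q := by positivity
  have hpq : p + q = 1 := by rw [hp, hq]; field_simp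
  have hk1 : k ≤ α * (m + n) := by
    calc k ≤ α * ((m + n : ℕ) : ℝ) := Nat.floor_le (by positivity)
      _ = α * (m + n) := by rw [Nat.cast_add]
  have hk2 : α * (m + n) - 1 < k := by
    have h0 : α * ((m + n : ℕ) : ℝ) < k + 1 := Nat.lt_floor_add_one _
    have h1 : α * ((m + n : ℕ) : ℝ) = α * (m + n) := by rw [Nat.cast_add]
    linarith
  have hk0 : 0 ≤ k := Nat.cast_nonneg _
  have hs1 : s ≤ α * m := Nat.floor_le (by positivity)
  have hs2 : α * m - 1 < s := by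
    have := Nat.lt_floor_add_one (α * (m : ℝ))
    linarith
  have ht1 : t ≤ α * n := Nat.floor_le (by positivity)
  have ht2 : α * n - 1 < t := by
    have := Nat.lt_floor_add_one (α * (n : ℝ))
    linarith
  have hpm : p * (m + n) = m := by rw [hp]; field_simp
  have hqn : q * (m + n) = n := by rw [hq]; field_simp
  have hkp1 : k * p ≤ α * m := by
    have := mul_le_mul_of_nonneg_right hk1 hp0.le
    nlinarith
  have hkp2 : α * m - 1 ≤ k * p := by
    have := mul_le_mul_of_nonneg_right hk2.le hp0.le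
    nlinarith
  have hkq1 : k * q ≤ α * n := by
    have := mul_le_mul_of_nonneg_right hk1 hq0.le
    nlinarith
  have hkq2 : α * n - 1 ≤ k * q := by
    have := mul_le_mul_of_nonneg_right hk2.le hq0.le
    nlinarith
  have v1 : (k * p - s) ^ 2 ≤ 1 := by
    have a1 : k * p - s ≤ 1 := by linarith
    have a2 : -1 ≤ k * p - s := by linarith
    nlinarith
  have v2 : (k * q - t) ^ 2 ≤ 1 := by
    have a1 : k * q - t ≤ 1 := by linarith
    have a2 : -1 ≤ k * q - t := by linarith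
    nlinarith
  have v3 : k * p * q ≤ α * m := by
    have hq1 : q ≤ 1 := by linarith
    have : k * p * q ≤ k * p * 1 := mul_le_mul_of_nonneg_left hq1 (mul_nonneg hk0 hp0.le)
    linarith
  have hl0 : 0 < Real.sqrt (α * m + 1) := Real.sqrt_pos.2 (by positivity)
  have hl2 : Real.sqrt (α * m + 1) ^ 2 = α * m + 1 := Real.sq_sqrt (by positivity)
  unfold Bq
  have hdiv : ((k * p * q + (k * p - s) ^ 2) + (k * p * q + (k * q - t) ^ 2))
      / (2 * Real.sqrt (α * m + 1)) ≤ Real.sqrt (α * m + 1) := by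
    rw [div_le_iff₀ (by positivity)]
    nlinarith
  linarith

/-- two-sided lemma for the product structure, first block not larger -/
lemma superadd1 {U : ℝ → ℝ} (hU : Measurable U) {C : ℝ} (hC : 0 ≤ C)
    (h1 : ∀ t, Real.exp (-C) ≤ U t) (h2 : ∀ t, U t ≤ Real.exp C) (hO : One U) {α : ℝ}
    (hα : 0 < α) (m n : ℕ) (hm : 0 < m) (hn : 0 < n) (lam : ℝ) (hlam : 0 < lam) :
    aN U α m + aN U α n - C * Bq lam ((m : ℝ) / (m + n)) ((n : ℝ) / (m + n))
      ⌊α * ((m + n : ℕ) : ℝ)⌋₊ ((⌊α * m⌋₊ : ℕ) : ℝ) ((⌊α * n⌋₊ : ℕ) : ℝ) ≤ aN U α (m + n) := by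
  have hm' : (0 : ℝ) < m := by exact_mod_cast hm
  have hn' : (0 : ℝ) < n := by exact_mod_cast hn
  set p : ℝ := (m : ℝ) / (m + n) with hp
  set q : ℝ := (n : ℝ) / (m + n) with hq
  have hp0 : 0 < p := by positivity
  have hq0 : 0 < q := by positivity
  have hpq : p + q = 1 := by rw [hp, hq]; field_simp
  have gm := VU_GV hU h1 h2 m
  have gn := VU_GV hU h1 h2 n
  have gmn := VU_GV hU h1 h2 (m + n)
  have gm' : GV C (fun (g : Fin m → ℝ) (x : Fin (m + n) → Bool) =>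
      VU U m g fun i => x (Fin.castAdd n i)) :=
    ⟨fun x => gm.meas _, fun g x => gm.lo _ _, fun g x => gm.hi _ _⟩
  have gn' : GV C (fun (g : Fin n → ℝ) (x : Fin (m + n) → Bool) =>
      VU U n g fun j => x (Fin.natAdd m j)) :=
    ⟨fun x => gn.meas _, fun g x => gn.lo _ _, fun g x => gn.hi _ _⟩
  have hcmp := compare gmn gm' gn' (gam (Fin (m + n))) (gam (Fin m)) (gam (Fin n)) hp0.le hq0.le
    hpq (hO m n hm hn) ⌊α * ((m + n : ℕ) : ℝ)⌋₊ (fun _ => (1 / 2 : ℝ) ^ (m + n))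
    (fun _ => by positivity)
  have hmix := mix_bound (Fin.appendEquiv (α := Bool) m n).symm gm gn hC (gam (Fin m))
    (gam (Fin n)) hp0.le hq0.le hpq hlam ⌊α * ((m + n : ℕ) : ℝ)⌋₊ (⌊α * m⌋₊ : ℤ) (⌊α * n⌋₊ : ℤ)
    (fun _ => (1 / 2 : ℝ) ^ m) (fun _ => (1 / 2 : ℝ) ^ n) (fun _ => by positivity)
    (fun _ => by positivity)
  have e1 : tens (Fin.appendEquiv (α := Bool) m n).symm (fun _ => (1 / 2 : ℝ) ^ m)
      (fun _ => (1 / 2 : ℝ) ^ n) = fun _ => (1 / 2 : ℝ) ^ (m + n) := by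
    funext x
    unfold tens
    rw [pow_add]
  have e2 : Rz (gam (Fin m)) (VU U m) C (⌊α * m⌋₊ : ℤ) (fun _ => (1 / 2 : ℝ) ^ m)
      = aN U α m := by
    unfold Rz aN
    have : (-((⌊α * m⌋₊ : ℕ) : ℤ)).toNat = 0 := by omega
    rw [this, Int.toNat_natCast]
    simp
  have e3 : Rz (gam (Fin n)) (VU U n) C (⌊α * n⌋₊ : ℤ) (fun _ => (1 / 2 : ℝ) ^ n)
      = aN U α n := by
    unfold Rz aN
    have : (-((⌊α * n⌋₊ : ℕ) : ℤ)).toNat = 0 := by omega
    rw [this, Int.toNat_natCast]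
    simp
  rw [e1, e2, e3] at hmix
  exact le_trans hmix hcmp

lemma sqrt_gap (m n : ℕ) (hmn : m ≤ n) :
    Real.sqrt ((m + n : ℕ) : ℝ) ≤ Real.sqrt n + Real.sqrt m / 2 := by
  rw [Real.sqrt_le_left (by positivity)]
  have h1 : Real.sqrt n ^ 2 = n := Real.sq_sqrt (Nat.cast_nonneg n)
  have h2 : Real.sqrt m ^ 2 = m := Real.sq_sqrt (Nat.cast_nonneg m)
  have h3 : Real.sqrt m ≤ Real.sqrt n := Real.sqrt_le_sqrt (by exact_mod_cast hmn)
  have h4 : 0 ≤ Real.sqrt m := Real.sqrt_nonneg _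
  push_cast
  nlinarith

/-- superadditivity with error, first block not larger -/
lemma superadd2 {U : ℝ → ℝ} (hU : Measurable U) {C : ℝ} (hC : 0 ≤ C)
    (h1 : ∀ t, Real.exp (-C) ≤ U t) (h2 : ∀ t, U t ≤ Real.exp C) (hO : One U) {α : ℝ}
    (hα : 0 < α) (m n : ℕ) (hm : 0 < m) (hn : 0 < n) :
    aN U α m + aN U α n - 2 * C * Real.sqrt (α + 1) * Real.sqrt (min m n : ℕ)
      ≤ aN U α (m + n) := by
  rcases le_total m n with h | h
  · have hm' : (0 : ℝ) < m := by exact_mod_cast hm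
    have hm1 : (1 : ℝ) ≤ m := by exact_mod_cast hm
    have hl : 0 < Real.sqrt (α * m + 1) := Real.sqrt_pos.2 (by positivity)
    have a1 := superadd1 hU hC h1 h2 hO hα m n hm hn _ hl
    have a2 := mul_le_mul_of_nonneg_left (Bq_bound (C := C) hα m n hm hn h) hC
    have a3 : Real.sqrt (α * m + 1) ≤ Real.sqrt (α + 1) * Real.sqrt m := by
      rw [← Real.sqrt_mul (by positivity)]
      exact Real.sqrt_le_sqrt (by nlinarith)
    have a4 := mul_le_mul_of_nonneg_left a3 hC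
    rw [min_eq_left h]
    nlinarith
  · have hn' : (0 : ℝ) < n := by exact_mod_cast hn
    have hn1 : (1 : ℝ) ≤ n := by exact_mod_cast hn
    have hl : 0 < Real.sqrt (α * n + 1) := Real.sqrt_pos.2 (by positivity)
    have a1 := superadd1 hU hC h1 h2 hO hα m n hm hn _ hl
    have a2 := mul_le_mul_of_nonneg_left (Bq_bound (C := C) hα n m hn hm h) hC
    have a3 : Real.sqrt (α * n + 1) ≤ Real.sqrt (α + 1) * Real.sqrt n := by
      rw [← Real.sqrt_mul (by positivity)]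
      exact Real.sqrt_le_sqrt (by nlinarith)
    have a4 := mul_le_mul_of_nonneg_left a3 hC
    have e : Bq (Real.sqrt (α * n + 1)) ((m : ℝ) / (m + n)) ((n : ℝ) / (m + n))
        ⌊α * ((m + n : ℕ) : ℝ)⌋₊ ((⌊α * m⌋₊ : ℕ) : ℝ) ((⌊α * n⌋₊ : ℕ) : ℝ)
        = Bq (Real.sqrt (α * n + 1)) ((n : ℝ) / (n + m)) ((m : ℝ) / (n + m))
        ⌊α * ((n + m : ℕ) : ℝ)⌋₊ ((⌊α * n⌋₊ : ℕ) : ℝ) ((⌊α * m⌋₊ : ℕ) : ℝ) := by
      rw [Nat.add_comm n m, add_comm (n : ℝ) (m : ℝ)]
      unfold Bq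
      ring
    rw [min_eq_right h]
    rw [e] at a1
    nlinarith

lemma aN_abs {U : ℝ → ℝ} (hU : Measurable U) {C : ℝ} (hC : 0 ≤ C)
    (h1 : ∀ t, Real.exp (-C) ≤ U t) (h2 : ∀ t, U t ≤ Real.exp C) {α : ℝ}
    (hα : 0 < α) (N : ℕ) : |aN U α N| ≤ C * α * N := by
  have g := VU_GV hU h1 h2 N
  have := iter_lip g (gam (Fin N)) ⌊α * N⌋₊ (fun _ => (1 / 2 : ℝ) ^ N) (fun _ => by positivity)
  have e : L (fun _ : Fin N → Bool => (1 / 2 : ℝ) ^ N) = 0 := by
    unfold L
    simp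
  rw [e, sub_zero] at this
  have hf : ((⌊α * N⌋₊ : ℕ) : ℝ) ≤ α * N := Nat.floor_le (by positivity)
  calc |aN U α N| ≤ C * (⌊α * N⌋₊ : ℕ) := this
    _ ≤ C * (α * N) := mul_le_mul_of_nonneg_left hf hC
    _ = _ := by ring

/-- existence of the limit from the one-constraint comparison -/
theorem limit_of_One {U : ℝ → ℝ} (hU : Measurable U) {C : ℝ} (hC : 0 ≤ C)
    (h1 : ∀ t, Real.exp (-C) ≤ U t) (h2 : ∀ t, U t ≤ Real.exp C) (hO : One U) {α : ℝ}
    (hα : 0 < α) : ∃ l : ℝ, Tendsto (fun N : ℕ => aN U α N / N) atTop (𝓝 l) ∧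
      ∀ N : ℕ, 0 < N → aN U α N / N ≤ l + 4 * C * Real.sqrt (α + 1) / Real.sqrt N := by
  set K : ℝ := 4 * C * Real.sqrt (α + 1) with hK
  have hK0 : 0 ≤ K := by positivity
  have a0 : aN U α 0 = 0 := by
    have := aN_abs hU hC h1 h2 hα 0
    simpa using this
  have hsub : Subadditive (fun N : ℕ => K * Real.sqrt N - aN U α N) := by
    intro m n
    rcases Nat.eq_zero_or_pos m with hm | hm
    · subst hm
      simp [a0]
    rcases Nat.eq_zero_or_pos n with hn | hn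
    · subst hn
      simp [a0]
    have s := superadd2 hU hC h1 h2 hO hα m n hm hn
    have gap : Real.sqrt ((m + n : ℕ) : ℝ)
        ≤ Real.sqrt m + Real.sqrt n - Real.sqrt (min m n : ℕ) / 2 := by
      rcases le_total m n with h | h
      · have := sqrt_gap m n h
        rw [min_eq_left h]
        linarith
      · have := sqrt_gap n m h
        rw [min_eq_right h, Nat.add_comm]
        linarith
    have gap2 := mul_le_mul_of_nonneg_left gap hK0
    have e : 2 * C * Real.sqrt (α + 1) * Real.sqrt (min m n : ℕ)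
        = K * (Real.sqrt (min m n : ℕ) / 2) := by rw [hK]; ring
    simp only
    rw [e] at s
    nlinarith
  have hbdd : BddBelow (Set.range fun N : ℕ => (K * Real.sqrt N - aN U α N) / N) := by
    refine ⟨-(C * α), ?_⟩
    rintro _ ⟨N, rfl⟩
    simp only
    rcases Nat.eq_zero_or_pos N with hN | hN
    · subst hN
      simp
      positivity
    · have hN' : (0 : ℝ) < N := by exact_mod_cast hN
      rw [le_div_iff₀ hN']
      have := (abs_le.1 (aN_abs hU hC h1 h2 hα N)).2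
      have h3 : 0 ≤ K * Real.sqrt N := by positivity
      nlinarith
  have hlim := hsub.tendsto_lim hbdd
  have hsq : Tendsto (fun N : ℕ => K / Real.sqrt N) atTop (𝓝 0) := by
    have : Tendsto (fun N : ℕ => Real.sqrt (N : ℝ)) atTop atTop :=
      Real.tendsto_sqrt_atTop.comp tendsto_natCast_atTop_atTop
    exact this.const_div_atTop K
  have hident : ∀ N : ℕ, 0 < N → aN U α N / N
      = K / Real.sqrt N - (K * Real.sqrt N - aN U α N) / N := by
    intro N hN
    have hN' : (0 : ℝ) < N := by exact_mod_cast hN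
    have hs0 : 0 < Real.sqrt N := Real.sqrt_pos.2 hN'
    have hs2 : Real.sqrt N * Real.sqrt N = N := Real.mul_self_sqrt hN'.le
    have : K / Real.sqrt N = K * Real.sqrt N / N := by
      rw [div_eq_div_iff hs0.ne' hN'.ne']
      have e1 : K * Real.sqrt N * Real.sqrt N = K * (Real.sqrt N * Real.sqrt N) := by ring
      rw [e1, hs2]
    rw [this, sub_div]
    ring
  refine ⟨-hsub.lim, ?_, ?_⟩
  · have := (hsq.sub hlim)
    rw [zero_sub] at this
    refine this.congr' ?_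
    filter_upwards [eventually_gt_atTop 0] with N hN
    exact (hident N hN).symm
  · intro N hN
    rw [hident N hN]
    have := hsub.lim_le_div hbdd hN.ne'
    linarith

end P157
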