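import Mathlib

/-!
# P157: moments of Gibbs averages of a positive definite function of Gaussian fields
-/

open MeasureTheory ProbabilityTheory

namespace P157

/-- standard Gaussian vector indexed by a finite type -/
noncomputable def gam (ι : Type) [Fintype ι] : Measure (ι → ℝ) :=
  Measure.pi fun _ => gaussianReal 0 1

instance (ι : Type) [Fintype ι] : IsProbabilityMeasure (gam ι) := by
  unfold gam; infer_instance

/-- symmetrisation of a measure -/
noncomputable def sym (ν : Measure ℝ) : Measure ℝ :=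
  (1 / 2 : ENNReal) • (ν + ν.map (fun x => -x))

instance (ν : Measure ℝ) [IsFiniteMeasure ν] : IsFiniteMeasure (ν.map (fun x : ℝ => -x)) := by
  infer_instance

instance symFinite (ν : Measure ℝ) [IsFiniteMeasure ν] : IsFiniteMeasure (sym ν) := by
  unfold sym
  constructor
  rw [Measure.smul_apply, smul_eq_mul]
  exact ENNReal.mul_lt_top (by simp) (measure_lt_top _ _)

/-- the cosine transform is the Fourier transform of the symmetrised measure -/
lemma cos_eq (ν : Measure ℝ) [IsFiniteMeasure ν] (t : ℝ) :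
    ((∫ ξ, Real.cos (ξ * t) ∂ν : ℝ) : ℂ) = ∫ ξ, Complex.exp ((ξ * t : ℝ) * Complex.I) ∂(sym ν) := by
  have hc : ∀ μ : Measure ℝ, IsFiniteMeasure μ → ∀ s : ℝ,
      Integrable (fun ξ : ℝ => Complex.exp ((ξ * s : ℝ) * Complex.I)) μ := by
    intro μ hμ s
    refine Integrable.of_bound (C := 1) (by fun_prop) (Filter.Eventually.of_forall fun ξ => ?_)
    rw [Complex.norm_exp_ofReal_mul_I]
  unfold sym
  rw [integral_smul_measure, integral_add_measure (hc _ inferInstance t) (hc _ inferInstance t),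
    integral_map (by fun_prop) (by fun_prop), ← integral_add (hc _ inferInstance t)]
  · rw [← integral_complex_ofReal]
    rw [← integral_smul]
    refine integral_congr_ae (Filter.Eventually.of_forall fun ξ => ?_)
    simp only [Complex.real_smul]
    have h1 : ((ENNReal.toReal (1 / 2) : ℝ) : ℂ) = 1 / 2 := by
      simp
    rw [Complex.ofReal_cos, Complex.cos]
    simp only [neg_mul, Complex.ofReal_neg, Complex.ofReal_mul]
    rw [show ((ENNReal.toReal (1 / 2) : ℝ) : ℂ) = 1 / 2 from h1]
    ring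
  · have := hc ν inferInstance (-t)
    refine this.congr (Filter.Eventually.of_forall fun ξ => ?_)
    simp

/-- characteristic function of the standard Gaussian vector -/
lemma gam_char {ι : Type} [Fintype ι] (u : ι → ℝ) :
    ∫ g, Complex.exp (((∑ i, g i * u i : ℝ)) * Complex.I) ∂(gam ι)
      = (Real.exp (-(∑ i, u i ^ 2) / 2) : ℂ) := by
  have h : ∀ g : ι → ℝ, Complex.exp (((∑ i, g i * u i : ℝ)) * Complex.I)
      = ∏ i, Complex.exp (((u i : ℝ) * (g i : ℝ)) * Complex.I) := by
    intro g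
    rw [← Complex.exp_sum]
    congr 1
    push_cast
    rw [Finset.sum_mul]
    exact Finset.sum_congr rfl fun i _ => by ring
  simp only [h]
  unfold gam
  rw [integral_fintype_prod_eq_prod (𝕜 := ℂ)
    (fun (i : ι) (x : ℝ) => Complex.exp (((u i : ℝ) * (x : ℝ)) * Complex.I))]
  have h2 : ∀ i, ∫ x, Complex.exp (((u i : ℝ) * (x : ℝ)) * Complex.I) ∂(gaussianReal 0 1)
      = Complex.exp (-(u i : ℂ) ^ 2 / 2) := by
    intro i
    have := charFun_gaussianReal (μ := 0) (v := 1) (u i)
    rw [charFun_apply_real] at this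
    rw [this]
    congr 1
    simp
    ring
  simp only [h2]
  rw [← Complex.exp_sum]
  push_cast
  congr 1
  rw [← Finset.sum_div, Finset.sum_neg_distrib]

/-- cosine transform of a measure -/
noncomputable def phi (ν : Measure ℝ) (t : ℝ) : ℝ := ∫ ξ, Real.cos (ξ * t) ∂ν

lemma phi_cont (ν : Measure ℝ) [IsFiniteMeasure ν] : Continuous (phi ν) := by
  unfold phi
  refine continuous_of_dominated (bound := fun _ => 1) ?_ ?_ (integrable_const _) ?_
  · intro t
    exact (by fun_prop : Continuous fun ξ : ℝ => Real.cos (ξ * t)).aestronglyMeasurable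
  · intro t
    exact Filter.Eventually.of_forall fun ξ => by
      rw [Real.norm_eq_abs]; exact Real.abs_cos_le_one _
  · exact Filter.Eventually.of_forall fun ξ => by fun_prop

lemma phi_abs (ν : Measure ℝ) [IsFiniteMeasure ν] (t : ℝ) : |phi ν t| ≤ ν.real Set.univ := by
  unfold phi
  have := norm_integral_le_of_norm_le_const (μ := ν) (C := 1) (f := fun ξ => Real.cos (ξ * t))
    (Filter.Eventually.of_forall fun ξ => by
      rw [Real.norm_eq_abs]; exact Real.abs_cos_le_one _)
  simpa using this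

lemma prod_phi (ν : Measure ℝ) [IsFiniteMeasure ν] {n : ℕ} (t : Fin n → ℝ) :
    ((∏ l, phi ν (t l) : ℝ) : ℂ)
      = ∫ ξ : Fin n → ℝ, Complex.exp (((∑ l, ξ l * t l : ℝ)) * Complex.I)
          ∂(Measure.pi fun _ : Fin n => sym ν) := by
  have h : ∀ ξ : Fin n → ℝ, Complex.exp (((∑ l, ξ l * t l : ℝ)) * Complex.I)
      = ∏ l, Complex.exp (((ξ l * t l : ℝ)) * Complex.I) := by
    intro ξ
    rw [← Complex.exp_sum]
    congr 1
    push_cast
    rw [Finset.sum_mul]
  simp only [h]
  rw [integral_fintype_prod_eq_prod (𝕜 := ℂ)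
    (fun (l : Fin n) (x : ℝ) => Complex.exp (((x * t l : ℝ)) * Complex.I))]
  rw [Complex.ofReal_prod]
  exact Finset.prod_congr rfl fun l _ => cos_eq ν (t l)

/-- the multi-overlap functional -/
noncomputable def Phi (ν : Measure ℝ) {ι : Type} [Fintype ι] {n : ℕ} (v : Fin n → ι → ℝ) : ℝ :=
  ∫ ξ : Fin n → ℝ, Real.exp (-(∑ i, (∑ l, ξ l * v l i) ^ 2) / 2)
    ∂(Measure.pi fun _ : Fin n => sym ν)

lemma prod_moment (ν : Measure ℝ) [IsFiniteMeasure ν] {ι : Type} [Fintype ι] {n : ℕ}
    (v : Fin n → ι → ℝ) :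
    ∫ g, ∏ l, phi ν (∑ i, g i * v l i) ∂(gam ι) = Phi ν v := by
  have h1 : ((∫ g, ∏ l, phi ν (∑ i, g i * v l i) ∂(gam ι) : ℝ) : ℂ) = ((Phi ν v : ℝ) : ℂ) := by
    rw [← integral_complex_ofReal]
    simp only [prod_phi]
    rw [integral_integral_swap]
    · unfold Phi
      rw [← integral_complex_ofReal]
      refine integral_congr_ae (Filter.Eventually.of_forall fun ξ => ?_)
      simp only
      rw [← gam_char]
      refine integral_congr_ae (Filter.Eventually.of_forall fun g => ?_)
      simp only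
      congr 3
      simp only [Finset.mul_sum]
      rw [Finset.sum_comm]
      exact Finset.sum_congr rfl fun i _ => Finset.sum_congr rfl fun l _ => by ring
    · refine Integrable.of_bound (C := 1) ?_ (Filter.Eventually.of_forall fun z => ?_)
      · have hc : Continuous (Function.uncurry fun (g : ι → ℝ) (ξ : Fin n → ℝ) =>
            Complex.exp (((∑ l, ξ l * (∑ i, g i * v l i) : ℝ)) * Complex.I)) := by
          unfold Function.uncurry
          fun_prop
        exact hc.aestronglyMeasurable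
      · rcases z with ⟨g, ξ⟩
        simp only [Function.uncurry]
        rw [Complex.norm_exp_ofReal_mul_I]
  exact_mod_cast h1

lemma moment (ν : Measure ℝ) [IsFiniteMeasure ν] {ι : Type} [Fintype ι] {X : Type} [Fintype X]
    (w : X → ℝ) (v : X → ι → ℝ) (n : ℕ) :
    ∫ g, (∑ x, w x * phi ν (∑ i, g i * v x i)) ^ n ∂(gam ι)
      = ∑ x : Fin n → X, (∏ l, w (x l)) * Phi ν (fun l => v (x l)) := by
  have h : ∀ g : ι → ℝ, (∑ x, w x * phi ν (∑ i, g i * v x i)) ^ n
      = ∑ x : Fin n → X, (∏ l, w (x l)) * ∏ l, phi ν (∑ i, g i * v (x l) i) := by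
    intro g
    have := Fintype.sum_pow (ι := X) (fun x => w x * phi ν (∑ i, g i * v x i)) n
    rw [this]
    refine Finset.sum_congr rfl fun x _ => ?_
    rw [Finset.prod_mul_distrib]
  simp only [h]
  rw [integral_finset_sum]
  · refine Finset.sum_congr rfl fun x _ => ?_
    rw [integral_const_mul, prod_moment]
  · intro x _
    refine Integrable.const_mul ?_ _
    have hc : Continuous fun g : ι → ℝ => ∏ l, phi ν (∑ i, g i * v (x l) i) := by
      refine continuous_finset_prod _ fun l _ => ?_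
      exact (phi_cont ν).comp (by fun_prop)
    refine Integrable.of_bound (C := (ν.real Set.univ) ^ n) hc.aestronglyMeasurable
      (Filter.Eventually.of_forall fun g => ?_)
    rw [Real.norm_eq_abs, Finset.abs_prod]
    calc ∏ l, |phi ν (∑ i, g i * v (x l) i)| ≤ ∏ _l : Fin n, ν.real Set.univ :=
          Finset.prod_le_prod (fun _ _ => abs_nonneg _) (fun l _ => phi_abs ν _)
      _ = (ν.real Set.univ) ^ n := by simp

/-- convexity of the multi-overlap functional -/
lemma Phi_convex (ν : Measure ℝ) [IsFiniteMeasure ν] {ι ι1 ι2 : Type} [Fintype ι] [Fintype ι1]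
    [Fintype ι2] {n : ℕ} (v : Fin n → ι → ℝ) (v1 : Fin n → ι1 → ℝ) (v2 : Fin n → ι2 → ℝ)
    {p q : ℝ} (hp : 0 ≤ p) (hq : 0 ≤ q) (hpq : p + q = 1)
    (H : ∀ ξ : Fin n → ℝ, ∑ i, (∑ l, ξ l * v l i) ^ 2
      = p * ∑ i, (∑ l, ξ l * v1 l i) ^ 2 + q * ∑ i, (∑ l, ξ l * v2 l i) ^ 2) :
    Phi ν v ≤ p * Phi ν v1 + q * Phi ν v2 := by
  unfold Phi
  have hi : ∀ {κ : Type} [Fintype κ] (u : Fin n → κ → ℝ),
      Integrable (fun ξ : Fin n → ℝ => Real.exp (-(∑ i, (∑ l, ξ l * u l i) ^ 2) / 2))
        (Measure.pi fun _ : Fin n => sym ν) := by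
    intro κ _ u
    refine Integrable.of_bound (C := 1) ?_ (Filter.Eventually.of_forall fun ξ => ?_)
    · exact (by fun_prop : Continuous fun ξ : Fin n → ℝ =>
        Real.exp (-(∑ i, (∑ l, ξ l * u l i) ^ 2) / 2)).aestronglyMeasurable
    · rw [Real.norm_eq_abs, Real.abs_exp]
      refine Real.exp_le_one_iff.mpr ?_
      have : 0 ≤ ∑ i, (∑ l, ξ l * u l i) ^ 2 := Finset.sum_nonneg fun i _ => sq_nonneg _
      linarith
  rw [← integral_const_mul, ← integral_const_mul, ← integral_add ((hi v1).const_mul _)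
    ((hi v2).const_mul _)]
  refine integral_mono (hi v) (((hi v1).const_mul _).add ((hi v2).const_mul _)) fun ξ => ?_
  simp only [Pi.add_apply]
  rw [H ξ]
  have := convexOn_exp.2 (Set.mem_univ (-(∑ i, (∑ l, ξ l * v1 l i) ^ 2) / 2))
    (Set.mem_univ (-(∑ i, (∑ l, ξ l * v2 l i) ^ 2) / 2)) hp hq hpq
  simp only [smul_eq_mul] at this
  refine le_trans (le_of_eq ?_) this
  congr 1
  ring

end P157
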