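import Vale.Agent.P157.Ops
import Vale.Agent.P157.Moment

/-!
# P157: the one-constraint comparison
-/

open MeasureTheory

namespace P157

section
variable {X : Type} [Fintype X] [Nonempty X]

/-- the random vector of constraint weights -/
noncomputable def Vf (c : ℝ) (ν : Measure ℝ) {ι : Type} [Fintype ι] (v : X → ι → ℝ)
    (g : ι → ℝ) (x : X) : ℝ := c - phi ν (∑ i, g i * v x i)

lemma Vf_cont (c : ℝ) (ν : Measure ℝ) [IsFiniteMeasure ν] {ι : Type} [Fintype ι]
    (v : X → ι → ℝ) (x : X) : Continuous fun g => Vf c ν v g x := by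
  unfold Vf
  exact continuous_const.sub ((phi_cont ν).comp (by fun_prop))

/-- two-sided bounds for the constraint weights -/
lemma Vf_GV (c : ℝ) (ν : Measure ℝ) [IsFiniteMeasure ν] {ι : Type}
    [Fintype ι] (v : X → ι → ℝ) {C : ℝ} (hC1 : Real.exp (-C) ≤ c - ν.real Set.univ)
    (hC2 : c + ν.real Set.univ ≤ Real.exp C) : GV C (Vf c ν v) := by
  refine ⟨fun x => (Vf_cont c ν v x).measurable, fun g x => ?_, fun g x => ?_⟩
  · unfold Vf
    have := (abs_le.1 (phi_abs ν (∑ i, g i * v x i))).2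
    linarith
  · unfold Vf
    have := (abs_le.1 (phi_abs ν (∑ i, g i * v x i))).1
    linarith

/-- average of the cosine transform -/
noncomputable def tt (c : ℝ) (ν : Measure ℝ) {ι : Type} [Fintype ι] (v : X → ι → ℝ)
    (u : X → ℝ) (g : ι → ℝ) : ℝ := ∑ x, (u x / c) * phi ν (∑ i, g i * v x i)

lemma tt_cont (c : ℝ) (ν : Measure ℝ) [IsFiniteMeasure ν] {ι : Type} [Fintype ι]
    (v : X → ι → ℝ) (u : X → ℝ) : Continuous (tt c ν v u) := by
  unfold tt
  refine continuous_finsetSum _ fun x _ => ?_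
  exact continuous_const.mul ((phi_cont ν).comp (by fun_prop))

lemma tt_abs (c : ℝ) (ν : Measure ℝ) [IsFiniteMeasure ν] (hc : ν.real Set.univ < c) {ι : Type}
    [Fintype ι] (v : X → ι → ℝ) (u : X → ℝ) (hu : ∀ x, 0 < u x) (hs : ∑ x, u x = 1)
    (g : ι → ℝ) : |tt c ν v u g| ≤ ν.real Set.univ / c := by
  have hc0 : 0 < c := lt_of_le_of_lt measureReal_nonneg hc
  unfold tt
  calc |∑ x, (u x / c) * phi ν (∑ i, g i * v x i)|
      ≤ ∑ x, |(u x / c) * phi ν (∑ i, g i * v x i)| := Finset.abs_sum_le_sum_abs _ _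
    _ ≤ ∑ x, (u x / c) * ν.real Set.univ := by
        refine Finset.sum_le_sum fun x _ => ?_
        rw [abs_mul, abs_of_nonneg (div_nonneg (hu x).le hc0.le)]
        exact mul_le_mul_of_nonneg_left (phi_abs ν _) (div_nonneg (hu x).le hc0.le)
    _ = ν.real Set.univ / c := by
        rw [← Finset.sum_mul, ← Finset.sum_div, hs]
        ring

lemma log_series (c : ℝ) (ν : Measure ℝ) [IsFiniteMeasure ν] (hc : ν.real Set.univ < c)
    {ι : Type} [Fintype ι] (v : X → ι → ℝ) (u : X → ℝ) (hu : ∀ x, 0 < u x)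
    (hs : ∑ x, u x = 1) :
    HasSum (fun n : ℕ => ∫ g, (tt c ν v u g) ^ (n + 1) / (n + 1) ∂(gam ι))
      (∫ g, -Real.log (1 - tt c ν v u g) ∂(gam ι)) := by
  have hc0 : 0 < c := lt_of_le_of_lt measureReal_nonneg hc
  set ρ := ν.real Set.univ / c with hρ
  have hρ0 : 0 ≤ ρ := div_nonneg measureReal_nonneg hc0.le
  have hρ1 : ρ < 1 := (div_lt_one hc0).2 hc
  have hb : ∀ g (n : ℕ), ‖(tt c ν v u g) ^ (n + 1) / ((n : ℝ) + 1)‖ ≤ ρ ^ (n + 1) := by
    intro g n
    rw [norm_div, norm_pow, Real.norm_eq_abs, Real.norm_eq_abs]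
    have h1 : |tt c ν v u g| ^ (n + 1) ≤ ρ ^ (n + 1) :=
      pow_le_pow_left₀ (abs_nonneg _) (tt_abs c ν hc v u hu hs g) _
    have h2 : (1 : ℝ) ≤ |(n : ℝ) + 1| := by
      rw [abs_of_nonneg (by positivity)]
      have : (0 : ℝ) ≤ n := Nat.cast_nonneg n
      linarith
    calc |tt c ν v u g| ^ (n + 1) / |(n : ℝ) + 1| ≤ |tt c ν v u g| ^ (n + 1) / 1 :=
          div_le_div_of_nonneg_left (by positivity) one_pos h2
      _ ≤ _ := by rw [div_one]; exact h1
  have hi : ∀ n : ℕ, Integrable (fun g => (tt c ν v u g) ^ (n + 1) / ((n : ℝ) + 1)) (gam ι) := by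
    intro n
    refine Integrable.of_bound (C := ρ ^ (n + 1)) ?_ (Filter.Eventually.of_forall fun g => hb g n)
    exact (((tt_cont c ν v u).pow _).div_const _).aestronglyMeasurable
  have hsum := hasSum_integral_of_summable_integral_norm hi (by
    refine Summable.of_nonneg_of_le (fun n => integral_nonneg fun g => norm_nonneg _)
      (fun n => ?_) ((summable_geometric_of_lt_one hρ0 hρ1).mul_left ρ)
    calc ∫ g, ‖(tt c ν v u g) ^ (n + 1) / ((n : ℝ) + 1)‖ ∂(gam ι)
        ≤ ∫ _g, ρ ^ (n + 1) ∂(gam ι) := integral_mono (hi n).norm (integrable_const _)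
          fun g => hb g n
      _ = ρ * ρ ^ n := by simp [pow_succ, mul_comm])
  have e2 : ∫ g, -Real.log (1 - tt c ν v u g) ∂(gam ι)
      = ∫ g, ∑' n : ℕ, (tt c ν v u g) ^ (n + 1) / ((n : ℝ) + 1) ∂(gam ι) := by
    refine integral_congr_ae (Filter.Eventually.of_forall fun g => ?_)
    simp only
    have habs : |tt c ν v u g| < 1 := lt_of_le_of_lt (tt_abs c ν hc v u hu hs g) hρ1
    exact (Real.hasSum_pow_div_log_of_abs_lt_one habs).tsum_eq.symm
  rw [e2]
  exact hsum

lemma tt_moment (c : ℝ) (ν : Measure ℝ) [IsFiniteMeasure ν]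
    {ι : Type} [Fintype ι] (v : X → ι → ℝ) (u : X → ℝ) (n : ℕ) :
    ∫ g, (tt c ν v u g) ^ n ∂(gam ι)
      = ∑ x : Fin n → X, (∏ l, (u (x l) / c)) * Phi ν (fun l => v (x l)) :=
  moment ν (fun x => u x / c) v n

/-- quadratic-form identity between three systems of vectors -/
def QF {ι ι1 ι2 : Type} [Fintype ι] [Fintype ι1] [Fintype ι2] (p q : ℝ)
    (v : X → ι → ℝ) (v1 : X → ι1 → ℝ) (v2 : X → ι2 → ℝ) : Prop :=
  ∀ (n : ℕ) (x : Fin n → X) (ξ : Fin n → ℝ), ∑ i, (∑ l, ξ l * v (x l) i) ^ 2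
    = p * ∑ i, (∑ l, ξ l * v1 (x l) i) ^ 2 + q * ∑ i, (∑ l, ξ l * v2 (x l) i) ^ 2

lemma log_compare (c : ℝ) (ν : Measure ℝ) [IsFiniteMeasure ν] (hc : ν.real Set.univ < c)
    {ι ι1 ι2 : Type} [Fintype ι] [Fintype ι1] [Fintype ι2]
    (v : X → ι → ℝ) (v1 : X → ι1 → ℝ) (v2 : X → ι2 → ℝ)
    {p q : ℝ} (hp : 0 ≤ p) (hq : 0 ≤ q) (hpq : p + q = 1) (H : QF p q v v1 v2)
    (u : X → ℝ) (hu : ∀ x, 0 < u x) (hs : ∑ x, u x = 1) :
    ∫ g, -Real.log (1 - tt c ν v u g) ∂(gam ι)
      ≤ p * ∫ g, -Real.log (1 - tt c ν v1 u g) ∂(gam ι1)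
        + q * ∫ g, -Real.log (1 - tt c ν v2 u g) ∂(gam ι2) := by
  have hc0 : 0 < c := lt_of_le_of_lt measureReal_nonneg hc
  have s := log_series c ν hc v u hu hs
  have s1 := log_series c ν hc v1 u hu hs
  have s2 := log_series c ν hc v2 u hu hs
  refine hasSum_le (fun n => ?_) s ((s1.mul_left p).add (s2.mul_left q))
  simp only [integral_div]
  rw [tt_moment, tt_moment, tt_moment, ← mul_div_assoc, ← mul_div_assoc, ← add_div]
  refine div_le_div_of_nonneg_right ?_ (by positivity)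
  rw [Finset.mul_sum, Finset.mul_sum, ← Finset.sum_add_distrib]
  refine Finset.sum_le_sum fun x _ => ?_
  have h1 := Phi_convex ν (fun l => v (x l)) (fun l => v1 (x l)) (fun l => v2 (x l)) hp hq hpq
    (fun ξ => H _ x ξ)
  have h2 : 0 ≤ ∏ l, (u (x l) / c) :=
    Finset.prod_nonneg fun l _ => div_nonneg (hu _).le hc0.le
  calc (∏ l, (u (x l) / c)) * Phi ν (fun l => v (x l))
      ≤ (∏ l, (u (x l) / c))
        * (p * Phi ν (fun l => v1 (x l)) + q * Phi ν (fun l => v2 (x l))) :=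
        mul_le_mul_of_nonneg_left h1 h2
    _ = _ := by ring

lemma T_log (c : ℝ) (ν : Measure ℝ) [IsFiniteMeasure ν] (hc : ν.real Set.univ < c)
    {ι : Type} [Fintype ι] (v : X → ι → ℝ) (w : X → ℝ) (hw : ∀ x, 0 < w x) :
    T (gam ι) (Vf c ν v) L w
      = Real.log (∑ x, w x) + Real.log c
        - ∫ g, -Real.log (1 - tt c ν v (fun x => w x / ∑ y, w y) g) ∂(gam ι) := by
  have hc0 : 0 < c := lt_of_le_of_lt measureReal_nonneg hc
  have hW := sum_pos' hw
  set u : X → ℝ := fun x => w x / ∑ y, w y with hu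
  have hu0 : ∀ x, 0 < u x := fun x => div_pos (hw x) hW
  have hus : ∑ x, u x = 1 := by
    rw [hu, ← Finset.sum_div, div_self hW.ne']
  have habs : ∀ g, |tt c ν v u g| ≤ ν.real Set.univ / c := fun g =>
    tt_abs c ν hc v u hu0 hus g
  have hlt : ∀ g, 0 < 1 - tt c ν v u g := by
    intro g
    have h1 := (abs_le.1 (habs g)).2
    have h2 : ν.real Set.univ / c < 1 := (div_lt_one hc0).2 hc
    linarith
  have e : ∀ g, L (fun x => w x * Vf c ν v g x)
      = (Real.log (∑ x, w x) + Real.log c) + Real.log (1 - tt c ν v u g) := by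
    intro g
    unfold L
    rw [← Real.log_mul hW.ne' hc0.ne', ← Real.log_mul (mul_pos hW hc0).ne' (hlt g).ne']
    congr 1
    unfold Vf tt
    have h1 : ∀ x, (u x / c) * phi ν (∑ i, g i * v x i)
        = (w x * phi ν (∑ i, g i * v x i)) / ((∑ y, w y) * c) := by
      intro x
      rw [hu]
      field_simp
    simp only [h1]
    rw [← Finset.sum_div]
    have h2 : ∑ x, w x * (c - phi ν (∑ i, g i * v x i))
        = (∑ x, w x) * c - ∑ x, w x * phi ν (∑ i, g i * v x i) := by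
      rw [Finset.sum_mul, ← Finset.sum_sub_distrib]
      exact Finset.sum_congr rfl fun x _ => by ring
    rw [h2]
    field_simp
  have hint : Integrable (fun g => Real.log (1 - tt c ν v u g)) (gam ι) := by
    set ρ := ν.real Set.univ / c with hρ
    have hρ1 : ρ < 1 := (div_lt_one hc0).2 hc
    refine Integrable.of_bound (C := max |Real.log (1 - ρ)| |Real.log (1 + ρ)|) ?_
      (Filter.Eventually.of_forall fun g => ?_)
    · have hcont : Continuous fun g => Real.log (1 - tt c ν v u g) :=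
        Continuous.log (continuous_const.sub (tt_cont c ν v u)) fun g => (hlt g).ne'
      exact hcont.aestronglyMeasurable
    · rw [Real.norm_eq_abs]
      have h1 := (abs_le.1 (habs g)).2
      have h2 := (abs_le.1 (habs g)).1
      have l1 : Real.log (1 - ρ) ≤ Real.log (1 - tt c ν v u g) :=
        Real.log_le_log (by linarith) (by linarith)
      have l2 : Real.log (1 - tt c ν v u g) ≤ Real.log (1 + ρ) :=
        Real.log_le_log (hlt g) (by linarith)
      exact abs_le_max_abs_abs l1 l2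
  unfold T
  simp only [e]
  rw [integral_add (integrable_const _) hint, integral_neg]
  simp

/-- the one-constraint comparison -/
theorem one_constraint (c : ℝ) (ν : Measure ℝ) [IsFiniteMeasure ν] (hc : ν.real Set.univ < c)
    {ι ι1 ι2 : Type} [Fintype ι] [Fintype ι1] [Fintype ι2]
    (v : X → ι → ℝ) (v1 : X → ι1 → ℝ) (v2 : X → ι2 → ℝ)
    {p q : ℝ} (hp : 0 ≤ p) (hq : 0 ≤ q) (hpq : p + q = 1) (H : QF p q v v1 v2)
    (w : X → ℝ) (hw : ∀ x, 0 < w x) :
    Mx p q (T (gam ι1) (Vf c ν v1)) (T (gam ι2) (Vf c ν v2)) L w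
      ≤ T (gam ι) (Vf c ν v) L w := by
  have hW := sum_pos' hw
  unfold Mx
  rw [T_log c ν hc v w hw, T_log c ν hc v1 w hw, T_log c ν hc v2 w hw]
  have := log_compare c ν hc v v1 v2 hp hq hpq H (fun x => w x / ∑ y, w y)
    (fun x => div_pos (hw x) hW) (by rw [← Finset.sum_div, div_self hW.ne'])
  have e : p * (Real.log (∑ x, w x) + Real.log c) + q * (Real.log (∑ x, w x) + Real.log c)
      = Real.log (∑ x, w x) + Real.log c := by
    rw [← add_mul, hpq, one_mul]
  linarith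

end

end P157
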