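import Vale.Agent.P157.Mix
import Vale.Agent.P157.One

/-!
# P157: iterates as integrals over independent patterns
-/

open MeasureTheory ProbabilityTheory

namespace P157

section
variable {Ω X : Type} [MeasurableSpace Ω] [Fintype X] [Nonempty X] {C : ℝ} {V : Ω → X → ℝ}

lemma GV_prod (h : GV C V) (M : ℕ) :
    GV (C * M) (fun (G : Fin M → Ω) (x : X) => ∏ a, V (G a) x) := by
  refine ⟨fun x => ?_, fun G x => ?_, fun G x => ?_⟩
  · exact Finset.measurable_fun_prod _ fun a _ => (h.meas x).comp (measurable_pi_apply a)
  · calc Real.exp (-(C * M)) = ∏ _a : Fin M, Real.exp (-C) := by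
          rw [Finset.prod_const, Finset.card_univ, Fintype.card_fin, ← Real.exp_nat_mul]
          congr 1
          ring
      _ ≤ _ := Finset.prod_le_prod (fun a _ => (Real.exp_pos _).le) fun a _ => h.lo _ _
  · calc ∏ a, V (G a) x ≤ ∏ _a : Fin M, Real.exp C :=
          Finset.prod_le_prod (fun a _ => (h.pos _ _).le) fun a _ => h.hi _ _
      _ = _ := by
          rw [Finset.prod_const, Finset.card_univ, Fintype.card_fin, ← Real.exp_nat_mul]
          congr 1
          ring

lemma GV_pair {Ω' : Type} [MeasurableSpace Ω'] {C' : ℝ} {V' : Ω' → X → ℝ} (h : GV C V)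
    (h' : GV C' V') : GV (C + C') (fun (z : Ω × Ω') (x : X) => V z.1 x * V' z.2 x) := by
  refine ⟨fun x => ?_, fun z x => ?_, fun z x => ?_⟩
  · exact ((h.meas x).comp measurable_fst).mul ((h'.meas x).comp measurable_snd)
  · rw [neg_add, Real.exp_add]
    exact mul_le_mul (h.lo _ _) (h'.lo _ _) (Real.exp_pos _).le (h.pos _ _).le
  · rw [Real.exp_add]
    exact mul_le_mul (h.hi _ _) (h'.hi _ _) (h'.pos _ _).le (Real.exp_pos _).le

/-- the average over independent patterns is an iterate of the averaging operator -/
lemma link (h : GV C V) (P : Measure Ω) [IsProbabilityMeasure P] (M : ℕ) :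
    ∀ w : X → ℝ, (∀ x, 0 < w x) →
      ∫ G : Fin M → Ω, L (fun x => w x * ∏ a, V (G a) x) ∂(Measure.pi fun _ => P)
        = (T P V)^[M] L w := by
  induction M with
  | zero =>
    intro w _
    simp
  | succ M ih =>
    intro w hw
    rw [Function.iterate_succ_apply']
    have hmp := measurePreserving_piFinSuccAbove (fun _ : Fin (M + 1) => P) 0
    have e1 : ∫ G : Fin (M + 1) → Ω, L (fun x => w x * ∏ a, V (G a) x)
          ∂(Measure.pi fun _ => P)
        = ∫ z : Ω × (Fin M → Ω), L (fun x => w x * (V z.1 x * ∏ a, V (z.2 a) x))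
          ∂(P.prod (Measure.pi fun _ => P)) := by
      rw [← hmp.integral_comp (MeasurableEquiv.measurableEmbedding _)]
      refine integral_congr_ae (Filter.Eventually.of_forall fun G => ?_)
      simp only
      congr 1
      funext x
      rw [Fin.prod_univ_succ]
      rfl
    have hpair := GV_pair h (GV_prod h M)
    rw [e1, integral_prod _ ((L_good (X := X)).integrable hpair _ hw)]
    unfold T
    refine integral_congr_ae (Filter.Eventually.of_forall fun ω => ?_)
    simp only
    have := ih (fun x => w x * V ω x) (h.mulpos hw ω)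
    unfold T at this
    rw [← this]
    refine integral_congr_ae (Filter.Eventually.of_forall fun G => ?_)
    simp only
    congr 1
    funext x
    ring

end

end P157
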