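import Vale.Agent.P157.Ops

/-!
# P157: the mixture of two independent systems
-/

open MeasureTheory

namespace P157

section
variable {Ω X : Type} [MeasurableSpace Ω] [Fintype X] [Nonempty X]

/-- iterates extended to negative times by an upper value -/
noncomputable def Rz (P : Measure Ω) (V : Ω → X → ℝ) (C : ℝ) (s : ℤ) (w : X → ℝ) : ℝ :=
  (T P V)^[s.toNat] L w + C * ((-s).toNat : ℝ)

variable {C : ℝ} {V : Ω → X → ℝ}

lemma iter_lip (h : GV C V) (P : Measure Ω) [IsProbabilityMeasure P] (k : ℕ) :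
    ∀ w : X → ℝ, (∀ x, 0 < w x) → |(T P V)^[k] L w - L w| ≤ C * k := by
  induction k with
  | zero => intro w _; simp
  | succ k ih =>
    intro w hw
    rw [Function.iterate_succ_apply']
    have gk := iter_good (L_good (X := X)) h P k
    have h1 : T P V ((T P V)^[k] L) w - L w
        = ∫ ω, ((T P V)^[k] L (fun x => w x * V ω x) - L w) ∂P := by
      rw [integral_sub (gk.integrable h P hw) (integrable_const _)]
      simp [T]
    rw [h1]
    have := norm_integral_le_of_norm_le_const (μ := P) (C := C * (k + 1 : ℕ))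
      (f := fun ω => (T P V)^[k] L (fun x => w x * V ω x) - L w)
      (Filter.Eventually.of_forall fun ω => by
        rw [Real.norm_eq_abs]
        have a1 := ih _ (h.mulpos hw ω)
        have a2 := L_lip h hw ω
        calc |(T P V)^[k] L (fun x => w x * V ω x) - L w|
            = |((T P V)^[k] L (fun x => w x * V ω x) - L (fun x => w x * V ω x))
                + (L (fun x => w x * V ω x) - L w)| := by ring_nf
          _ ≤ _ := abs_add_le _ _
          _ ≤ C * k + C := add_le_add a1 a2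
          _ = C * (k + 1 : ℕ) := by push_cast; ring)
    simpa using this

lemma Rz_good (h : GV C V) (P : Measure Ω) [IsProbabilityMeasure P] (s : ℤ) :
    Good (Rz P V C s) := by
  have g := iter_good (L_good (X := X)) h P s.toNat
  refine ⟨?_, ?_⟩
  · unfold Rz
    exact g.meas.add_const _
  · obtain ⟨K, hK⟩ := g.bdd
    refine ⟨K + |C * ((-s).toNat : ℝ)|, fun w hw => ?_⟩
    unfold Rz
    calc |(T P V)^[s.toNat] L w + C * ((-s).toNat : ℝ) - L w|
        = |((T P V)^[s.toNat] L w - L w) + C * ((-s).toNat : ℝ)| := by ring_nf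
      _ ≤ _ := abs_add_le _ _
      _ ≤ _ := by linarith [hK w hw]

lemma Rz_step (h : GV C V) (P : Measure Ω) [IsProbabilityMeasure P] (s : ℤ)
    {w : X → ℝ} (hw : ∀ x, 0 < w x) : Rz P V C s w ≤ T P V (Rz P V C (s - 1)) w := by
  rcases le_or_gt 1 s with hs | hs
  · have e1 : s.toNat = (s - 1).toNat + 1 := by omega
    have e2 : (-s).toNat = 0 := by omega
    have e3 : (-(s - 1)).toNat = 0 := by omega
    have e4 : Rz P V C (s - 1) = (T P V)^[(s - 1).toNat] L := by
      funext w
      unfold Rz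
      rw [e3]
      simp
    rw [e4]
    unfold Rz
    rw [e1, e2, Function.iterate_succ_apply']
    simp
  · have e1 : s.toNat = 0 := by omega
    have e2 : (s - 1).toNat = 0 := by omega
    have e3 : ((-(s - 1)).toNat : ℝ) = ((-s).toNat : ℝ) + 1 := by
      have : (-(s - 1)).toNat = (-s).toNat + 1 := by omega
      rw [this]
      push_cast
      ring
    unfold Rz
    rw [e1, e2, e3]
    simp only [Function.iterate_zero, id_eq]
    unfold T
    rw [integral_add ((L_good (X := X)).integrable h P hw) (integrable_const _)]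
    have h1 : L w - C ≤ ∫ ω, L (fun x => w x * V ω x) ∂P := by
      have : ∫ _ω : Ω, (L w - C) ∂P = L w - C := by simp
      rw [← this]
      refine integral_mono (integrable_const _) ((L_good (X := X)).integrable h P hw)
        fun ω => ?_
      have := (abs_le.1 (L_lip h hw ω)).1
      simp only
      linarith
    have h2 : ∫ _ω : Ω, C * (((-s).toNat : ℝ) + 1) ∂P = C * (((-s).toNat : ℝ) + 1) := by simp
    rw [h2]
    linarith

lemma Rz_le (h : GV C V) (P : Measure Ω) [IsProbabilityMeasure P] (s : ℤ)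
    {w : X → ℝ} (hw : ∀ x, 0 < w x) : Rz P V C s w ≤ L w + C * |(s : ℝ)| := by
  unfold Rz
  rcases le_or_gt 0 s with hs | hs
  · have e2 : (-s).toNat = 0 := by omega
    have h1 := (abs_le.1 (iter_lip h P s.toNat w hw)).2
    have e3 : ((s.toNat : ℕ) : ℝ) = |(s : ℝ)| := by
      have : (s : ℝ) = ((s.toNat : ℕ) : ℝ) := by
        have := Int.toNat_of_nonneg hs
        exact_mod_cast this.symm
      rw [abs_of_nonneg (by exact_mod_cast hs)]
      exact this.symm
    rw [e2, ← e3]
    simp only [Nat.cast_zero, mul_zero, add_zero]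
    linarith
  · have e1 : s.toNat = 0 := by omega
    have e3 : (((-s).toNat : ℕ) : ℝ) = |(s : ℝ)| := by
      have h0 := Int.toNat_of_nonneg (show 0 ≤ -s by omega)
      have : (-(s : ℝ)) = (((-s).toNat : ℕ) : ℝ) := by exact_mod_cast h0.symm
      rw [abs_of_neg (by exact_mod_cast hs)]
      exact this.symm
    rw [e1, e3]
    simp

end

section
variable {Ω1 Ω2 X1 X2 X : Type} [MeasurableSpace Ω1] [MeasurableSpace Ω2]
  [Fintype X1] [Nonempty X1] [Fintype X2] [Nonempty X2] [Fintype X] [Nonempty X]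
  {C : ℝ} {V1 : Ω1 → X1 → ℝ} {V2 : Ω2 → X2 → ℝ}

/-- product weight -/
def tens (e : X ≃ X1 × X2) (w1 : X1 → ℝ) (w2 : X2 → ℝ) (x : X) : ℝ :=
  w1 (e x).1 * w2 (e x).2

lemma tens_pos (e : X ≃ X1 × X2) {w1 : X1 → ℝ} {w2 : X2 → ℝ} (h1 : ∀ x, 0 < w1 x)
    (h2 : ∀ x, 0 < w2 x) : ∀ x, 0 < tens e w1 w2 x := fun x => mul_pos (h1 _) (h2 _)

lemma L_tens (e : X ≃ X1 × X2) {w1 : X1 → ℝ} {w2 : X2 → ℝ} (h1 : ∀ x, 0 < w1 x)
    (h2 : ∀ x, 0 < w2 x) : L (tens e w1 w2) = L w1 + L w2 := by
  unfold L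
  rw [← Real.log_mul (sum_pos' h1).ne' (sum_pos' h2).ne']
  congr 1
  unfold tens
  rw [e.sum_comp (fun y : X1 × X2 => w1 y.1 * w2 y.2), Fintype.sum_prod_type,
    Finset.sum_mul_sum]

/-- the quadratic error function -/
noncomputable def Bq (lam p q : ℝ) (k : ℕ) (s t : ℝ) : ℝ :=
  lam + ((k * p * q + (k * p - s) ^ 2) + (k * p * q + (k * q - t) ^ 2)) / (2 * lam)

lemma Bq_step (lam p q : ℝ) (hlam : 0 < lam) (hpq : p + q = 1) (k : ℕ) (s t : ℝ) :
    Bq lam p q (k + 1) s t = p * Bq lam p q k (s - 1) t + q * Bq lam p q k s (t - 1) := by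
  unfold Bq
  have hq : q = 1 - p := by linarith
  subst hq
  push_cast
  field_simp
  ring

lemma Bq_zero (lam p q : ℝ) (hlam : 0 < lam) (s t : ℝ) :
    |s| + |t| ≤ Bq lam p q 0 s t := by
  unfold Bq
  have h1 : lam + (((0 : ℕ) * p * q + ((0 : ℕ) * p - s) ^ 2)
      + ((0 : ℕ) * p * q + ((0 : ℕ) * q - t) ^ 2)) / (2 * lam)
      - (|s| + |t|) = ((lam - |s|) ^ 2 + (lam - |t|) ^ 2) / (2 * lam) := by
    have hs : s ^ 2 = |s| ^ 2 := (sq_abs s).symm
    have ht : t ^ 2 = |t| ^ 2 := (sq_abs t).symm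
    push_cast
    field_simp
    ring_nf
    rw [hs, ht]
  have h2 : 0 ≤ ((lam - |s|) ^ 2 + (lam - |t|) ^ 2) / (2 * lam) := by positivity
  linarith

lemma mix_bound (e : X ≃ X1 × X2) (h1 : GV C V1) (h2 : GV C V2) (hC : 0 ≤ C)
    (P1 : Measure Ω1) [IsProbabilityMeasure P1] (P2 : Measure Ω2) [IsProbabilityMeasure P2]
    {p q lam : ℝ} (hp : 0 ≤ p) (hq : 0 ≤ q) (hpq : p + q = 1) (hlam : 0 < lam) (k : ℕ) :
    ∀ (s t : ℤ) (w1 : X1 → ℝ) (w2 : X2 → ℝ), (∀ x, 0 < w1 x) → (∀ x, 0 < w2 x) →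
      Rz P1 V1 C s w1 + Rz P2 V2 C t w2 - C * Bq lam p q k s t
        ≤ (Mx p q (T P1 fun ω x => V1 ω (e x).1) (T P2 fun ω x => V2 ω (e x).2))^[k] L
            (tens e w1 w2) := by
  have h1' : GV C (fun (ω : Ω1) (x : X) => V1 ω (e x).1) :=
    ⟨fun x => h1.meas _, fun ω x => h1.lo _ _, fun ω x => h1.hi _ _⟩
  have h2' : GV C (fun (ω : Ω2) (x : X) => V2 ω (e x).2) :=
    ⟨fun x => h2.meas _, fun ω x => h2.lo _ _, fun ω x => h2.hi _ _⟩
  induction k with
  | zero =>
    intro s t w1 w2 hw1 hw2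
    simp only [Function.iterate_zero, id_eq]
    rw [L_tens e hw1 hw2]
    have a1 := Rz_le h1 P1 s hw1
    have a2 := Rz_le h2 P2 t hw2
    have a3 := mul_le_mul_of_nonneg_left (Bq_zero lam p q hlam (s : ℝ) (t : ℝ)) hC
    linarith
  | succ k ih =>
    intro s t w1 w2 hw1 hw2
    rw [Function.iterate_succ_apply']
    have gk := Mx_iter_good (L_good (X := X)) h1' h2' P1 P2 hp hq hpq k
    set G := (Mx p q (T P1 fun ω x => V1 ω (e x).1) (T P2 fun ω x => V2 ω (e x).2))^[k] L
      with hG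
    have A1 : Rz P1 V1 C s w1 + Rz P2 V2 C t w2 - C * Bq lam p q k ((s : ℝ) - 1) t
        ≤ T P1 (fun ω x => V1 ω (e x).1) G (tens e w1 w2) := by
      have i1 := (Rz_good h1 P1 (s - 1)).integrable h1 P1 hw1
      have st := Rz_step h1 P1 s hw1
      have e1 : T P1 V1 (Rz P1 V1 C (s - 1)) w1
            + (Rz P2 V2 C t w2 - C * Bq lam p q k ((s : ℝ) - 1) t)
          = ∫ ω, (Rz P1 V1 C (s - 1) (fun x => w1 x * V1 ω x)
            + (Rz P2 V2 C t w2 - C * Bq lam p q k ((s : ℝ) - 1) t)) ∂P1 := by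
        rw [integral_add i1 (integrable_const _)]
        simp [T]
      have e2 : ∫ ω, (Rz P1 V1 C (s - 1) (fun x => w1 x * V1 ω x)
            + (Rz P2 V2 C t w2 - C * Bq lam p q k ((s : ℝ) - 1) t)) ∂P1
          ≤ T P1 (fun ω x => V1 ω (e x).1) G (tens e w1 w2) := by
        refine integral_mono (i1.add (integrable_const _))
          (gk.integrable h1' P1 (tens_pos e hw1 hw2)) fun ω => ?_
        have := ih (s - 1) t _ w2 (h1.mulpos hw1 ω) hw2
        push_cast at this
        have e3 : (fun x => tens e w1 w2 x * V1 ω (e x).1)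
            = tens e (fun x => w1 x * V1 ω x) w2 := by
          funext x
          unfold tens
          ring
        simp only [e3, Pi.add_apply]
        linarith
      linarith
    have A2 : Rz P1 V1 C s w1 + Rz P2 V2 C t w2 - C * Bq lam p q k s ((t : ℝ) - 1)
        ≤ T P2 (fun ω x => V2 ω (e x).2) G (tens e w1 w2) := by
      have i1 := (Rz_good h2 P2 (t - 1)).integrable h2 P2 hw2
      have st := Rz_step h2 P2 t hw2
      have e1 : T P2 V2 (Rz P2 V2 C (t - 1)) w2
            + (Rz P1 V1 C s w1 - C * Bq lam p q k s ((t : ℝ) - 1))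
          = ∫ ω, (Rz P2 V2 C (t - 1) (fun x => w2 x * V2 ω x)
            + (Rz P1 V1 C s w1 - C * Bq lam p q k s ((t : ℝ) - 1))) ∂P2 := by
        rw [integral_add i1 (integrable_const _)]
        simp [T]
      have e2 : ∫ ω, (Rz P2 V2 C (t - 1) (fun x => w2 x * V2 ω x)
            + (Rz P1 V1 C s w1 - C * Bq lam p q k s ((t : ℝ) - 1))) ∂P2
          ≤ T P2 (fun ω x => V2 ω (e x).2) G (tens e w1 w2) := by
        refine integral_mono (i1.add (integrable_const _))
          (gk.integrable h2' P2 (tens_pos e hw1 hw2)) fun ω => ?_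
        have := ih s (t - 1) w1 _ hw1 (h2.mulpos hw2 ω)
        push_cast at this
        have e3 : (fun x => tens e w1 w2 x * V2 ω (e x).2)
            = tens e w1 (fun x => w2 x * V2 ω x) := by
          funext x
          unfold tens
          ring
        simp only [e3, Pi.add_apply]
        linarith
      linarith
    have B1 := mul_le_mul_of_nonneg_left A1 hp
    have B2 := mul_le_mul_of_nonneg_left A2 hq
    have B3 := Bq_step lam p q hlam hpq k (s : ℝ) (t : ℝ)
    unfold Mx
    rw [B3]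
    have hq' : q = 1 - p := by linarith
    calc Rz P1 V1 C s w1 + Rz P2 V2 C t w2
          - C * (p * Bq lam p q k ((s : ℝ) - 1) t + q * Bq lam p q k s ((t : ℝ) - 1))
        = p * (Rz P1 V1 C s w1 + Rz P2 V2 C t w2 - C * Bq lam p q k ((s : ℝ) - 1) t)
          + q * (Rz P1 V1 C s w1 + Rz P2 V2 C t w2 - C * Bq lam p q k s ((t : ℝ) - 1)) := by
          linear_combination (Rz P1 V1 C s w1 + Rz P2 V2 C t w2) * (-hpq)
      _ ≤ _ := add_le_add B1 B2

end

end P157
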