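import Mathlib

/-!
# P157: averaging operators on functions of positive weights
-/

open MeasureTheory

namespace P157

/-- averaging operator: multiply the weight by a random vector and average -/
noncomputable def T {Ω X : Type} [MeasurableSpace Ω] (P : Measure Ω) (V : Ω → X → ℝ)
    (F : (X → ℝ) → ℝ) (w : X → ℝ) : ℝ :=
  ∫ ω, F (fun x => w x * V ω x) ∂P

/-- log of the total mass -/
noncomputable def L {X : Type} [Fintype X] (w : X → ℝ) : ℝ := Real.log (∑ x, w x)

/-- admissible functions of a weight -/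
structure Good {X : Type} [Fintype X] (F : (X → ℝ) → ℝ) : Prop where
  meas : Measurable F
  bdd : ∃ K, ∀ w : X → ℝ, (∀ x, 0 < w x) → |F w - L w| ≤ K

/-- admissible random vectors -/
structure GV {Ω X : Type} [MeasurableSpace Ω] (C : ℝ) (V : Ω → X → ℝ) : Prop where
  meas : ∀ x, Measurable fun ω => V ω x
  lo : ∀ ω x, Real.exp (-C) ≤ V ω x
  hi : ∀ ω x, V ω x ≤ Real.exp C

lemma GV.pos {Ω X : Type} [MeasurableSpace Ω] {C : ℝ} {V : Ω → X → ℝ} (h : GV C V) (ω : Ω)
    (x : X) : 0 < V ω x := lt_of_lt_of_le (Real.exp_pos _) (h.lo ω x)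

lemma GV.mulpos {Ω X : Type} [MeasurableSpace Ω] {C : ℝ} {V : Ω → X → ℝ} (h : GV C V)
    {w : X → ℝ} (hw : ∀ x, 0 < w x) (ω : Ω) : ∀ x, 0 < w x * V ω x :=
  fun x => mul_pos (hw x) (h.pos ω x)

lemma L_good {X : Type} [Fintype X] : Good (L (X := X)) := by
  refine ⟨?_, 0, fun w _ => by simp⟩
  unfold L
  exact Real.measurable_log.comp (by fun_prop)

lemma sum_pos' {X : Type} [Fintype X] [Nonempty X] {w : X → ℝ} (hw : ∀ x, 0 < w x) :
    0 < ∑ x, w x := Finset.sum_pos (fun x _ => hw x) Finset.univ_nonempty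

lemma L_lip {Ω X : Type} [MeasurableSpace Ω] [Fintype X] [Nonempty X] {C : ℝ} {V : Ω → X → ℝ}
    (h : GV C V) {w : X → ℝ} (hw : ∀ x, 0 < w x) (ω : Ω) :
    |L (fun x => w x * V ω x) - L w| ≤ C := by
  have h0 := sum_pos' hw
  have h1 := sum_pos' (h.mulpos hw ω)
  have hup : ∑ x, w x * V ω x ≤ Real.exp C * ∑ x, w x := by
    rw [Finset.mul_sum]
    exact Finset.sum_le_sum fun x _ => by
      have := mul_le_mul_of_nonneg_left (h.hi ω x) (hw x).le
      linarith
  have hlo : Real.exp (-C) * ∑ x, w x ≤ ∑ x, w x * V ω x := by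
    rw [Finset.mul_sum]
    exact Finset.sum_le_sum fun x _ => by
      have := mul_le_mul_of_nonneg_left (h.lo ω x) (hw x).le
      linarith
  unfold L
  have e1 : Real.log (∑ x, w x * V ω x) ≤ C + Real.log (∑ x, w x) := by
    calc Real.log (∑ x, w x * V ω x) ≤ Real.log (Real.exp C * ∑ x, w x) :=
          Real.log_le_log h1 hup
      _ = C + Real.log (∑ x, w x) := by
          rw [Real.log_mul (Real.exp_pos _).ne' h0.ne', Real.log_exp]
  have e2 : -C + Real.log (∑ x, w x) ≤ Real.log (∑ x, w x * V ω x) := by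
    calc -C + Real.log (∑ x, w x) = Real.log (Real.exp (-C) * ∑ x, w x) := by
          rw [Real.log_mul (Real.exp_pos _).ne' h0.ne', Real.log_exp]
      _ ≤ _ := Real.log_le_log (mul_pos (Real.exp_pos _) h0) hlo
  rw [abs_le]
  constructor <;> linarith

section
variable {Ω X : Type} [MeasurableSpace Ω] [Fintype X] [Nonempty X] {C : ℝ} {V : Ω → X → ℝ}

lemma GV.meas_mul (h : GV C V) : Measurable fun z : (X → ℝ) × Ω => fun x => z.1 x * V z.2 x :=
  measurable_pi_lambda _ fun x =>
    ((measurable_pi_apply x).comp measurable_fst).mul ((h.meas x).comp measurable_snd)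

lemma Good.bound {F : (X → ℝ) → ℝ} (hF : Good F) (h : GV C V) :
    ∃ K, ∀ w : X → ℝ, (∀ x, 0 < w x) → ∀ ω, |F (fun x => w x * V ω x) - L w| ≤ K := by
  obtain ⟨K, hK⟩ := hF.bdd
  refine ⟨K + C, fun w hw ω => ?_⟩
  have h1 := hK _ (h.mulpos hw ω)
  have h2 := L_lip h hw ω
  calc |F (fun x => w x * V ω x) - L w|
      = |(F (fun x => w x * V ω x) - L (fun x => w x * V ω x))
          + (L (fun x => w x * V ω x) - L w)| := by ring_nf
    _ ≤ _ := abs_add_le _ _
    _ ≤ K + C := add_le_add h1 h2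

lemma Good.integrable {F : (X → ℝ) → ℝ} (hF : Good F) (h : GV C V) (P : Measure Ω)
    [IsProbabilityMeasure P] {w : X → ℝ} (hw : ∀ x, 0 < w x) :
    Integrable (fun ω => F (fun x => w x * V ω x)) P := by
  obtain ⟨K, hK⟩ := hF.bound h
  refine Integrable.of_bound (C := |L w| + K) ?_ (Filter.Eventually.of_forall fun ω => ?_)
  · have : Measurable fun ω => F (fun x => w x * V ω x) :=
      hF.meas.comp (h.meas_mul.comp (measurable_const.prodMk measurable_id))
    exact this.aestronglyMeasurable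
  · rw [Real.norm_eq_abs]
    calc |F (fun x => w x * V ω x)| = |L w + (F (fun x => w x * V ω x) - L w)| := by ring_nf
      _ ≤ |L w| + |F (fun x => w x * V ω x) - L w| := abs_add_le _ _
      _ ≤ _ := by linarith [hK w hw ω]

lemma T_good {F : (X → ℝ) → ℝ} (hF : Good F) (h : GV C V) (P : Measure Ω)
    [IsProbabilityMeasure P] : Good (T P V F) := by
  refine ⟨?_, ?_⟩
  · unfold T
    have h1 : StronglyMeasurable fun z : (X → ℝ) × Ω => F (fun x => z.1 x * V z.2 x) :=
      (hF.meas.comp h.meas_mul).stronglyMeasurable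
    exact h1.integral_prod_right'.measurable
  · obtain ⟨K, hK⟩ := hF.bound h
    refine ⟨K, fun w hw => ?_⟩
    have h1 : T P V F w - L w = ∫ ω, (F (fun x => w x * V ω x) - L w) ∂P := by
      rw [integral_sub (hF.integrable h P hw) (integrable_const _)]
      simp [T]
    rw [h1]
    have := norm_integral_le_of_norm_le_const (μ := P) (C := K)
      (f := fun ω => F (fun x => w x * V ω x) - L w)
      (Filter.Eventually.of_forall fun ω => by rw [Real.norm_eq_abs]; exact hK w hw ω)
    simpa using this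

lemma T_mono {F G : (X → ℝ) → ℝ} (hF : Good F) (hG : Good G) (h : GV C V) (P : Measure Ω)
    [IsProbabilityMeasure P] (hFG : ∀ w : X → ℝ, (∀ x, 0 < w x) → F w ≤ G w)
    {w : X → ℝ} (hw : ∀ x, 0 < w x) : T P V F w ≤ T P V G w :=
  integral_mono (hF.integrable h P hw) (hG.integrable h P hw) fun ω => hFG _ (h.mulpos hw ω)

lemma T_congr {F G : (X → ℝ) → ℝ} (h : GV C V) (P : Measure Ω)
    (hFG : ∀ w : X → ℝ, (∀ x, 0 < w x) → F w = G w)
    {w : X → ℝ} (hw : ∀ x, 0 < w x) : T P V F w = T P V G w := by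
  unfold T
  exact integral_congr_ae (Filter.Eventually.of_forall fun ω => hFG _ (h.mulpos hw ω))

lemma T_comm {Ω' : Type} [MeasurableSpace Ω'] {V' : Ω' → X → ℝ} {F : (X → ℝ) → ℝ}
    (hF : Good F) (h : GV C V) (h' : GV C V') (P : Measure Ω) [IsProbabilityMeasure P]
    (P' : Measure Ω') [IsProbabilityMeasure P'] {w : X → ℝ} (hw : ∀ x, 0 < w x) :
    T P V (T P' V' F) w = T P' V' (T P V F) w := by
  unfold T
  rw [integral_integral_swap]
  · refine integral_congr_ae (Filter.Eventually.of_forall fun ω' => ?_)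
    refine integral_congr_ae (Filter.Eventually.of_forall fun ω => ?_)
    simp only
    congr 1
    funext x
    ring
  · obtain ⟨K, hK⟩ := hF.bound h'
    refine Integrable.of_bound (C := |L w| + C + K) ?_ (Filter.Eventually.of_forall fun z => ?_)
    · have h1 : Measurable fun z : Ω × Ω' => fun x => w x * V z.1 x * V' z.2 x :=
        measurable_pi_lambda _ fun x =>
          (((h.meas x).comp measurable_fst).const_mul _).mul ((h'.meas x).comp measurable_snd)
      exact (hF.meas.comp h1).aestronglyMeasurable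
    · rcases z with ⟨ω, ω'⟩
      simp only [Function.uncurry]
      rw [Real.norm_eq_abs]
      have h1 := hK _ (h.mulpos hw ω) ω'
      have h2 := L_lip h hw ω
      calc |F (fun x => w x * V ω x * V' ω' x)|
          = |(L w + (L (fun x => w x * V ω x) - L w))
              + (F (fun x => w x * V ω x * V' ω' x) - L (fun x => w x * V ω x))| := by ring_nf
        _ ≤ |L w + (L (fun x => w x * V ω x) - L w)|
              + |F (fun x => w x * V ω x * V' ω' x) - L (fun x => w x * V ω x)| := abs_add_le _ _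
        _ ≤ (|L w| + |L (fun x => w x * V ω x) - L w|) + K :=
            add_le_add (abs_add_le _ _) h1
        _ ≤ _ := by linarith

end

/-- mixture of two operators -/
noncomputable def Mx {X : Type} (p q : ℝ) (A B : ((X → ℝ) → ℝ) → (X → ℝ) → ℝ)
    (F : (X → ℝ) → ℝ) (w : X → ℝ) : ℝ := p * A F w + q * B F w

section
variable {Ω Ω1 Ω2 X : Type} [MeasurableSpace Ω] [MeasurableSpace Ω1] [MeasurableSpace Ω2]
  [Fintype X] [Nonempty X] {C : ℝ} {V : Ω → X → ℝ} {V1 : Ω1 → X → ℝ} {V2 : Ω2 → X → ℝ}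

lemma Mx_good {F : (X → ℝ) → ℝ} (hF : Good F) (h1 : GV C V1) (h2 : GV C V2) (P1 : Measure Ω1)
    [IsProbabilityMeasure P1] (P2 : Measure Ω2) [IsProbabilityMeasure P2] {p q : ℝ}
    (hp : 0 ≤ p) (hq : 0 ≤ q) (hpq : p + q = 1) : Good (Mx p q (T P1 V1) (T P2 V2) F) := by
  have g1 := T_good hF h1 P1
  have g2 := T_good hF h2 P2
  refine ⟨?_, ?_⟩
  · unfold Mx
    exact (g1.meas.const_mul p).add (g2.meas.const_mul q)
  · obtain ⟨K1, hK1⟩ := g1.bdd
    obtain ⟨K2, hK2⟩ := g2.bdd
    refine ⟨p * K1 + q * K2, fun w hw => ?_⟩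
    have e : Mx p q (T P1 V1) (T P2 V2) F w - L w
        = p * (T P1 V1 F w - L w) + q * (T P2 V2 F w - L w) := by
      unfold Mx
      linear_combination (-L w) * hpq.symm
    rw [e]
    calc |p * (T P1 V1 F w - L w) + q * (T P2 V2 F w - L w)|
        ≤ |p * (T P1 V1 F w - L w)| + |q * (T P2 V2 F w - L w)| := abs_add_le _ _
      _ = p * |T P1 V1 F w - L w| + q * |T P2 V2 F w - L w| := by
          rw [abs_mul, abs_mul, abs_of_nonneg hp, abs_of_nonneg hq]
      _ ≤ _ := add_le_add (mul_le_mul_of_nonneg_left (hK1 w hw) hp)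
          (mul_le_mul_of_nonneg_left (hK2 w hw) hq)

lemma iter_good {F : (X → ℝ) → ℝ} (hF : Good F) (h : GV C V) (P : Measure Ω)
    [IsProbabilityMeasure P] (k : ℕ) : Good ((T P V)^[k] F) := by
  induction k with
  | zero => simpa using hF
  | succ k ih =>
    rw [Function.iterate_succ_apply']
    exact T_good ih h P

lemma Mx_iter_good {F : (X → ℝ) → ℝ} (hF : Good F) (h1 : GV C V1) (h2 : GV C V2)
    (P1 : Measure Ω1) [IsProbabilityMeasure P1] (P2 : Measure Ω2) [IsProbabilityMeasure P2]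
    {p q : ℝ} (hp : 0 ≤ p) (hq : 0 ≤ q) (hpq : p + q = 1) (k : ℕ) :
    Good ((Mx p q (T P1 V1) (T P2 V2))^[k] F) := by
  induction k with
  | zero => simpa using hF
  | succ k ih =>
    rw [Function.iterate_succ_apply']
    exact Mx_good ih h1 h2 P1 P2 hp hq hpq

lemma iter_mono {F G : (X → ℝ) → ℝ} (hF : Good F) (hG : Good G) (h : GV C V) (P : Measure Ω)
    [IsProbabilityMeasure P] (hFG : ∀ w : X → ℝ, (∀ x, 0 < w x) → F w ≤ G w) (k : ℕ) :
    ∀ w : X → ℝ, (∀ x, 0 < w x) → (T P V)^[k] F w ≤ (T P V)^[k] G w := by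
  induction k with
  | zero => simpa using hFG
  | succ k ih =>
    intro w hw
    rw [Function.iterate_succ_apply', Function.iterate_succ_apply']
    exact T_mono (iter_good hF h P k) (iter_good hG h P k) h P ih hw

lemma comm_iter {F : (X → ℝ) → ℝ} (hF : Good F) (h : GV C V) (h1 : GV C V1) (h2 : GV C V2)
    (P : Measure Ω) [IsProbabilityMeasure P]
    (P1 : Measure Ω1) [IsProbabilityMeasure P1] (P2 : Measure Ω2) [IsProbabilityMeasure P2]
    {p q : ℝ} (k : ℕ) :
    ∀ w : X → ℝ, (∀ x, 0 < w x) → Mx p q (T P1 V1) (T P2 V2) ((T P V)^[k] F) w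
      = (T P V)^[k] (Mx p q (T P1 V1) (T P2 V2) F) w := by
  induction k with
  | zero => intro w _; simp
  | succ k ih =>
    intro w hw
    rw [Function.iterate_succ_apply', Function.iterate_succ_apply']
    have hk := iter_good hF h P k
    have e : Mx p q (T P1 V1) (T P2 V2) (T P V ((T P V)^[k] F)) w
        = T P V (Mx p q (T P1 V1) (T P2 V2) ((T P V)^[k] F)) w := by
      unfold Mx
      rw [T_comm hk h1 h P1 P hw, T_comm hk h2 h P2 P hw]
      conv_rhs => unfold T
      rw [integral_add, integral_const_mul, integral_const_mul]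
      · rfl
      · exact ((T_good hk h1 P1).integrable h P hw).const_mul _
      · exact ((T_good hk h2 P2).integrable h P hw).const_mul _
    rw [e]
    exact T_congr h P ih hw

/-- comparison of iterates -/
lemma compare (h : GV C V) (h1 : GV C V1) (h2 : GV C V2)
    (P : Measure Ω) [IsProbabilityMeasure P]
    (P1 : Measure Ω1) [IsProbabilityMeasure P1] (P2 : Measure Ω2) [IsProbabilityMeasure P2]
    {p q : ℝ} (hp : 0 ≤ p) (hq : 0 ≤ q) (hpq : p + q = 1)
    (hL : ∀ w : X → ℝ, (∀ x, 0 < w x) → Mx p q (T P1 V1) (T P2 V2) L w ≤ T P V L w) (k : ℕ) :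
    ∀ w : X → ℝ, (∀ x, 0 < w x) →
      (Mx p q (T P1 V1) (T P2 V2))^[k] L w ≤ (T P V)^[k] L w := by
  induction k with
  | zero => intro w _; simp
  | succ k ih =>
    intro w hw
    rw [Function.iterate_succ_apply']
    have gk := Mx_iter_good (L_good (X := X)) h1 h2 P1 P2 hp hq hpq k
    have tk := iter_good (L_good (X := X)) h P k
    calc Mx p q (T P1 V1) (T P2 V2) ((Mx p q (T P1 V1) (T P2 V2))^[k] L) w
        ≤ Mx p q (T P1 V1) (T P2 V2) ((T P V)^[k] L) w := by
          unfold Mx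
          exact add_le_add (mul_le_mul_of_nonneg_left (T_mono gk tk h1 P1 ih hw) hp)
            (mul_le_mul_of_nonneg_left (T_mono gk tk h2 P2 ih hw) hq)
      _ = (T P V)^[k] (Mx p q (T P1 V1) (T P2 V2) L) w := comm_iter L_good h h1 h2 P P1 P2 k w hw
      _ ≤ (T P V)^[k] (T P V L) w :=
          iter_mono (Mx_good L_good h1 h2 P1 P2 hp hq hpq) (T_good L_good h P) h P hL k w hw
      _ = (T P V)^[k + 1] L w := by rw [Function.iterate_succ_apply]

end

end P157
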